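import Vale.Agent.Lib.P061.Main

namespace Vale.Agent.Results.P061.ConstantAtLeastFour

open Vale.Agent.Lib.P061

/-- Any absolute constant `C` for which the strong thin tree conjecture holds
(every `k`-edge-connected multigraph on at least two vertices has a `(C/k)`-thin
spanning tree, for every `k ≥ 1`) satisfies `C ≥ 4`. -/
theorem result :
    ∀ C : ℝ,
      (∀ k : ℕ, 1 ≤ k → ∀ (V E : Type) [Finite V] [Finite E] (G : MGraph V E),
        2 ≤ Nat.card V → G.EdgeConnected k →
        ∃ T : Set E, G.IsSpanningTree T ∧ G.IsThin (C / k) T) →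
      4 ≤ C :=
  four_le_of_strong_thin_tree

end Vale.Agent.Results.P061.ConstantAtLeastFour
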