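import Vale.Agent.Lib.P061.Explicit

namespace Vale.Agent.Results.P061.ExplicitThinnessBound

open Vale.Agent.Lib.P061

/-- For every `k ≥ 1` there is a `k`-edge-connected multigraph on `k + 1` vertices
(the complete graph) that has spanning trees, and in which every spanning tree `T`
has a cut `δ(S)` with `4 k |δ_G(S)| ≤ (k + 1)^2 |δ_T(S)|`.  Hence no thinness below
`4 k / (k + 1)^2` can be guaranteed for `k`-edge-connected multigraphs. -/
theorem result :
    ∀ k : ℕ, 1 ≤ k →
      ∃ (V E : Type) (_ : Finite V) (_ : Finite E) (G : MGraph V E),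
        Nat.card V = k + 1 ∧ G.EdgeConnected k ∧ (∃ T : Set E, G.IsSpanningTree T) ∧
        ∀ T : Set E, G.IsSpanningTree T → ∃ S : Set V, S.Nonempty ∧ S ≠ Set.univ ∧
          4 * k * (G.cut S).ncard ≤ (k + 1) ^ 2 * (G.cut S ∩ T).ncard :=
  exists_no_thin

end Vale.Agent.Results.P061.ExplicitThinnessBound
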